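import Mathlib

/-!
Group-ring action on integer valued functions on an abelian group.
-/

namespace Vale.Agent.Lib.P043

open Finset

variable {G : Type*} [AddCommGroup G]

/-- translation operators -/
noncomputable def tau : Multiplicative G →* Module.End ℤ (G → ℤ) where
  toFun h :=
    { toFun := fun φ x => φ (x - Multiplicative.toAdd h)
      map_add' := fun _ _ => rfl
      map_smul' := fun _ _ => rfl }
  map_one' := by
    ext φ x
    simp
  map_mul' := fun a b => by
    ext φ x
    simp [sub_sub]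

/-- the group ring acts by translations -/
noncomputable def rho : AddMonoidAlgebra ℤ G →ₐ[ℤ] Module.End ℤ (G → ℤ) :=
  AddMonoidAlgebra.lift ℤ (Module.End ℤ (G → ℤ)) G tau

noncomputable instance instModuleFn : Module (AddMonoidAlgebra ℤ G) (G → ℤ) :=
  Module.compHom (G → ℤ) (rho (G := G)).toRingHom

/-- shorthand for the basis element of the group ring -/
noncomputable def e (h : G) : AddMonoidAlgebra ℤ G := AddMonoidAlgebra.single h 1

theorem smul_def (a : AddMonoidAlgebra ℤ G) (φ : G → ℤ) : a • φ = rho a φ := rfl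

theorem e_smul (h : G) (φ : G → ℤ) (x : G) : (e h • φ) x = φ (x - h) := by
  rw [smul_def, e, rho, AddMonoidAlgebra.lift_single]
  simp [tau]

theorem e_add (a b : G) : e (a + b) = e a * e b := by
  simp [e, AddMonoidAlgebra.single_mul_single]

theorem e_zero : e (0 : G) = 1 := by
  simp [e, AddMonoidAlgebra.one_def]

theorem e_nsmul (n : ℕ) (a : G) : e (n • a) = e a ^ n := by
  induction n with
  | zero => simp [e_zero]
  | succ n ih => rw [succ_nsmul, e_add, ih, pow_succ]

theorem e_mul_neg (a : G) : e a * e (-a) = 1 := by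
  rw [← e_add, add_neg_cancel, e_zero]

/-- scalar action of integers from the group ring -/
theorem natCast_smul_fn (n : ℕ) (φ : G → ℤ) :
    ((n : AddMonoidAlgebra ℤ G)) • φ = (n : ℤ) • φ := by
  ext x
  rw [Nat.cast_smul_eq_nsmul, natCast_zsmul]

theorem sum_smul_apply {ι : Type*} (s : Finset ι) (a : ι → AddMonoidAlgebra ℤ G) (φ : G → ℤ)
    (x : G) : ((∑ i ∈ s, a i) • φ) x = ∑ i ∈ s, (a i • φ) x := by
  rw [Finset.sum_smul, Finset.sum_apply]

theorem sum_e_smul_apply {ι : Type*} (s : Finset ι) (a : ι → G) (φ : G → ℤ)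
    (x : G) : ((∑ i ∈ s, e (a i)) • φ) x = ∑ i ∈ s, φ (x - a i) := by
  rw [sum_smul_apply]
  exact Finset.sum_congr rfl fun i _ => e_smul _ _ _

/-- Frobenius in a commutative ring: sums of `p^n`-th powers. -/
theorem sum_pow_prime_pow {R ι : Type*} [CommRing R] {p : ℕ} (hp : p.Prime) (n : ℕ)
    (s : Finset ι) (a : ι → R) :
    ∃ E : R, (∑ i ∈ s, a i) ^ (p ^ n) = ∑ i ∈ s, a i ^ (p ^ n) + (p : R) * E := by
  classical
  induction s using Finset.induction_on with
  | empty =>
    refine ⟨0, ?_⟩
    have : p ^ n ≠ 0 := pow_ne_zero _ hp.ne_zero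
    simp [zero_pow this]
  | insert i s hi ih =>
    obtain ⟨E, hE⟩ := ih
    obtain ⟨r, hr⟩ := exists_add_pow_prime_pow_eq hp (a i) (∑ i ∈ s, a i) n
    refine ⟨a i * (∑ i ∈ s, a i) * r + E, ?_⟩
    rw [Finset.sum_insert hi, Finset.sum_insert hi, hr, hE]
    ring

end Vale.Agent.Lib.P043
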