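import Vale.Agent.Lib.P043.Algebra

/-!
The dilation lemma: a tiling by `F` is also a tiling by `r F` for `r` coprime to `|F|`.
-/

namespace Vale.Agent.Lib.P043

open Finset

variable {G : Type*} [AddCommGroup G]

/-- the group ring element of the dilate `r F` -/
noncomputable def hat (F : Finset G) (r : ℕ) : AddMonoidAlgebra ℤ G := ∑ f ∈ F, e (r • f)

theorem hat_smul_apply (F : Finset G) (r : ℕ) (φ : G → ℤ) (x : G) :
    (hat F r • φ) x = ∑ f ∈ F, φ (x - r • f) :=
  sum_e_smul_apply F (fun f => r • f) φ x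

/-- the constant function `1` -/
def one : G → ℤ := fun _ => 1

theorem hat_smul_one (F : Finset G) (r : ℕ) : hat F r • (one : G → ℤ) = (F.card : ℤ) • one := by
  ext x
  rw [hat_smul_apply]
  simp [one]

theorem hat_pow_prime (F : Finset G) (r : ℕ) {q : ℕ} (hq : q.Prime) :
    ∃ E, hat F r ^ q = hat F (q * r) + (q : AddMonoidAlgebra ℤ G) * E := by
  obtain ⟨E, hE⟩ := sum_pow_prime_pow hq 1 F (fun f => e (r • f))
  refine ⟨E, ?_⟩
  rw [pow_one] at hE
  rw [hat, hE, hat]
  congr 1
  refine Finset.sum_congr rfl fun f _ => ?_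
  rw [← e_nsmul, smul_smul]

/-- the counting function of a dilate on a set indicator `χ`: congruence modulo `q`. -/
theorem hat_mul_congr (F : Finset G) (χ : G → ℤ) (r : ℕ) (hr : hat F r • χ = one)
    {q : ℕ} (hq : q.Prime) (x : G) :
    ∃ w : ℤ, (hat F (q * r) • χ) x = (F.card : ℤ) ^ (q - 1) - q * w := by
  obtain ⟨E, hE⟩ := hat_pow_prime F r hq
  have h1 : hat F r ^ q • χ = ((F.card : ℤ) ^ (q - 1)) • (one : G → ℤ) := by
    have hq1 : q = (q - 1) + 1 := (Nat.sub_add_cancel hq.one_lt.le).symm
    have key : ∀ n : ℕ, hat F r ^ n • (one : G → ℤ) = ((F.card : ℤ) ^ n) • (one : G → ℤ) := by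
      intro n
      induction n with
      | zero => simp
      | succ n ih =>
        rw [pow_succ, mul_smul, hat_smul_one, smul_comm, ih, smul_smul, pow_succ, mul_comm]
    calc hat F r ^ q • χ = hat F r ^ ((q - 1) + 1) • χ := by rw [← hq1]
      _ = hat F r ^ (q - 1) • (hat F r • χ) := by rw [pow_succ, mul_smul]
      _ = _ := by rw [hr, key]
  rw [hE, add_smul, mul_smul, natCast_smul_fn] at h1
  refine ⟨(E • χ) x, ?_⟩
  have h2 := congrFun h1 x
  simp only [Pi.add_apply, Pi.smul_apply, smul_eq_mul, one, mul_one] at h2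
  linarith

/-- the value of a dilate count at a point is congruent to one modulo a prime not dividing `|F|` -/
theorem hat_mul_congr_one (F : Finset G) (χ : G → ℤ) (r : ℕ) (hr : hat F r • χ = one)
    {q : ℕ} (hq : q.Prime) (hk : ¬ q ∣ F.card) (x : G) :
    ((hat F (q * r) • χ) x : ZMod q) = 1 := by
  have := Fact.mk hq
  obtain ⟨w, hw⟩ := hat_mul_congr F χ r hr hq x
  rw [hw]
  have hne : ((F.card : ℕ) : ZMod q) ≠ 0 := by
    rw [Ne, ZMod.natCast_eq_zero_iff]
    exact hk
  push_cast
  simp [ZMod.pow_card_sub_one_eq_one hne]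

/-- counting functions of dilates of the indicator of a set -/
theorem hat_smul_nonneg (F : Finset G) (χ : G → ℤ) (hχ : ∀ x, 0 ≤ χ x) (r : ℕ) (x : G) :
    0 ≤ (hat F r • χ) x := by
  rw [hat_smul_apply]
  exact Finset.sum_nonneg fun f _ => hχ _

theorem hat_smul_le (F : Finset G) (χ : G → ℤ) (hχ : ∀ x, χ x ≤ 1) (r : ℕ) (x : G) :
    (hat F r • χ) x ≤ F.card := by
  rw [hat_smul_apply]
  calc ∑ f ∈ F, χ (x - r • f) ≤ ∑ f ∈ F, (1 : ℤ) := Finset.sum_le_sum fun f _ => hχ _
    _ = F.card := by simp

/-- a dilation by a large prime -/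
theorem dilation_large (F : Finset G) (χ : G → ℤ) (hχ0 : ∀ x, 0 ≤ χ x) (hχ1 : ∀ x, χ x ≤ 1)
    (h1 : hat F 1 • χ = one) {t : ℕ} (ht : t.Prime) (hk : F.card < t) :
    hat F t • χ = one := by
  ext x
  have hnd : ¬ t ∣ F.card := by
    intro hd
    have hpos : 0 < F.card := by
      by_contra h0
      have h00 : F.card = 0 := by omega
      have hF : F = ∅ := Finset.card_eq_zero.mp h00
      have := congrFun h1 x
      simp [hF, hat, one] at this
    exact absurd (Nat.le_of_dvd hpos hd) (by omega)
  have hc := hat_mul_congr_one F χ 1 h1 ht hnd x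
  rw [mul_one] at hc
  have h0 := hat_smul_nonneg F χ hχ0 t x
  have hle := hat_smul_le F χ hχ1 t x
  obtain ⟨v, hv⟩ := Int.eq_ofNat_of_zero_le h0
  rw [hv] at hc hle ⊢
  have hv1 : (v : ZMod t) = 1 := by exact_mod_cast hc
  have hvlt : v < t := by
    have : v ≤ F.card := by exact_mod_cast hle
    omega
  have hfact := Fact.mk ht
  have : v = 1 := by
    have h2 : ((v : ℕ) : ZMod t) = ((1 : ℕ) : ZMod t) := by simpa using hv1
    have := (ZMod.natCast_eq_natCast_iff' v 1 t).mp h2
    rw [Nat.mod_eq_of_lt hvlt, Nat.mod_eq_of_lt ht.one_lt] at this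
    exact this
  simp [this, one]

/-- dilation by a prime not dividing `|F|`, given one large dilate -/
theorem dilation_step (F : Finset G) (hF : F.Nonempty) (χ : G → ℤ) (hχ0 : ∀ x, 0 ≤ χ x)
    {t : ℕ} (ht : hat F t • χ = one) {r : ℕ} (hr : hat F r • χ = one)
    {q : ℕ} (hq : q.Prime) (hk : ¬ q ∣ F.card) :
    hat F (q * r) • χ = one := by
  set v := hat F (q * r) • χ with hv
  have hv1 : ∀ x, 1 ≤ v x := by
    intro x
    have hc := hat_mul_congr_one F χ r hr hq hk x
    have h0 : 0 ≤ v x := hat_smul_nonneg F χ hχ0 _ x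
    by_contra hlt
    have : v x = 0 := by omega
    rw [← hv, this] at hc
    have := Fact.mk hq
    simp at hc
  have hsum : hat F t • v = (F.card : ℤ) • (one : G → ℤ) := by
    rw [hv, smul_comm, ht, hat_smul_one]
  have hall : ∀ x, ∑ f ∈ F, (v (x - t • f) - 1) = 0 := by
    intro x
    have := congrFun hsum x
    rw [hat_smul_apply] at this
    simp only [Pi.smul_apply, smul_eq_mul, one, mul_one] at this
    rw [Finset.sum_sub_distrib, this]
    simp
  ext y
  obtain ⟨f0, hf0⟩ := hF
  have h := hall (y + t • f0)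
  have hz := (Finset.sum_eq_zero_iff_of_nonneg (fun f _ => by
    have := hv1 (y + t • f0 - t • f); omega)).mp h f0 hf0
  simp only [add_sub_cancel_right] at hz
  simp only [one]
  omega

/-- The dilation lemma: `r F` tiles with the same translation set for `r` coprime to `|F|`. -/
theorem dilation (F : Finset G) (hF : F.Nonempty) (χ : G → ℤ) (hχ0 : ∀ x, 0 ≤ χ x)
    (hχ1 : ∀ x, χ x ≤ 1) (h1 : hat F 1 • χ = one) :
    ∀ r : ℕ, 0 < r → Nat.Coprime r F.card → hat F r • χ = one := by
  obtain ⟨t, htk, ht⟩ := Nat.exists_infinite_primes (F.card + 1)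
  have hdt := dilation_large F χ hχ0 hχ1 h1 ht (by omega)
  intro r
  induction r using Nat.strong_induction_on with
  | _ r ih =>
    intro hr hc
    by_cases hr1 : r = 1
    · subst hr1
      exact h1
    · have hq : (Nat.minFac r).Prime := Nat.minFac_prime hr1
      obtain ⟨s, hs⟩ := Nat.minFac_dvd r
      have hspos : 0 < s := by
        rcases Nat.eq_zero_or_pos s with h | h
        · subst h
          omega
        · exact h
      have hslt : s < r := by
        have := hq.one_lt
        rw [hs]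
        nlinarith
      have hnd : ¬ r.minFac ∣ F.card := by
        intro hd
        have := Nat.dvd_gcd (Nat.minFac_dvd r) hd
        rw [hc.gcd_eq_one] at this
        exact hq.one_lt.ne' (Nat.dvd_one.mp this)
      have hsc : Nat.Coprime s F.card :=
        Nat.Coprime.coprime_dvd_left (Dvd.intro_left r.minFac hs.symm) hc
      have := dilation_step F hF χ hχ0 hdt (ih s hslt hspos hsc) hq hnd
      rw [← hs] at this
      exact this

end Vale.Agent.Lib.P043
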