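import Vale.Agent.Lib.P043.Dilation

/-!
Vandermonde elimination and the partition-coarsening induction.
-/

namespace Vale.Agent.Lib.P043

open Finset

section Abstract

variable {R M ι : Type*} [CommRing R] [AddCommGroup M] [Module R M]

/-- Vandermonde elimination -/
theorem elim [DecidableEq ι] (Y : ι → R) (t : Finset ι) :
    ∀ (s : Finset ι) (u : ι → M), Disjoint s t →
      (∀ j : ℕ, ∑ f ∈ s ∪ t, Y f ^ j • u f = 0) →
      ∀ j : ℕ, ∑ f ∈ s, Y f ^ j • ((∏ g ∈ t, (Y f - Y g)) • u f) = 0 := by
  induction t using Finset.induction_on with
  | empty =>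
    intro s u _ h j
    simpa using h j
  | insert g t hg ih =>
    intro s u hst h j
    have hst' : Disjoint s t := Finset.disjoint_of_subset_right (Finset.subset_insert _ _) hst
    have hgs : g ∉ s := fun hgs => (Finset.disjoint_left.mp hst hgs) (Finset.mem_insert_self _ _)
    have hgst : g ∉ s ∪ t := by
      simp [hgs, hg]
    have hnew : ∀ j : ℕ, ∑ f ∈ s ∪ t, Y f ^ j • ((Y f - Y g) • u f) = 0 := by
      intro j
      have h1 := h (j + 1)
      have h2 := h j
      have hins : s ∪ insert g t = insert g (s ∪ t) := by
        ext x
        simp only [Finset.mem_union, Finset.mem_insert]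
        tauto
      rw [hins, Finset.sum_insert hgst] at h1 h2
      have h3 : Y g ^ (j + 1) • u g + ∑ f ∈ s ∪ t, Y f ^ (j + 1) • u f
          - Y g • (Y g ^ j • u g + ∑ f ∈ s ∪ t, Y f ^ j • u f) = 0 := by
        rw [h1, h2]
        simp
      rw [← h3, smul_add, Finset.smul_sum, smul_smul, pow_succ' (Y g) j]
      simp only [add_sub_add_left_eq_sub]
      rw [← Finset.sum_sub_distrib]
      refine Finset.sum_congr rfl fun f _ => ?_
      rw [smul_smul, smul_smul, ← sub_smul]
      congr 1
      ring
    have := ih s (fun f => (Y f - Y g) • u f) hst' hnew j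
    rw [← this]
    refine Finset.sum_congr rfl fun f _ => ?_
    rw [Finset.prod_insert hg, mul_comm, mul_smul]

/-- Replacing `Y f` by `Y f0` in a product applied to a vector killed by their difference -/
theorem prod_replace (Y : ι → R) (t : Finset ι) (a b : R) (v : M)
    (h : (a - b) • v = 0) :
    (∏ g ∈ t, (a - Y g)) • v = (∏ g ∈ t, (b - Y g)) • v := by
  classical
  induction t using Finset.induction_on with
  | empty => simp
  | insert g t hg ih =>
    rw [Finset.prod_insert hg, Finset.prod_insert hg, mul_smul, ih, mul_smul, smul_comm,
      smul_comm (b - Y g)]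
    congr 1
    have : (a - Y g) - (b - Y g) = a - b := by ring
    rw [← sub_eq_zero, ← sub_smul, this, h]

end Abstract

variable {G : Type*} [AddCommGroup G]

/-- A function is annihilated by the dilates `hat F (1 + k j)` -/
def Hyp (F : Finset G) (m : G → ℤ) : Prop :=
  ∀ j : ℕ, ∑ f ∈ F, (e (F.card • f)) ^ j • (e f • m) = 0

theorem Hyp.smul {F : Finset G} {m : G → ℤ} (h : Hyp F m) (a : AddMonoidAlgebra ℤ G) :
    Hyp F (a • m) := by
  intro j
  have := congrArg (fun v => a • v) (h j)
  simp only [smul_zero, Finset.smul_sum] at this
  rw [← this]
  refine Finset.sum_congr rfl fun f _ => ?_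
  rw [smul_comm (e f) a, smul_comm (e (F.card • f) ^ j) a]

/-- labels: equal labels mean the two operators agree on `m` -/
def Kc (F : Finset G) (c : G → G) (m : G → ℤ) : Prop :=
  ∀ f ∈ F, ∀ f' ∈ F, c f = c f' → (e (F.card • f) - e (F.card • f')) • m = 0

theorem Kc.smul {F : Finset G} {c : G → G} {m : G → ℤ} (h : Kc F c m) (a : AddMonoidAlgebra ℤ G) :
    Kc F c (a • m) := by
  intro f hf f' hf' hc
  rw [smul_comm, h f hf f' hf' hc, smul_zero]

/-- The partition-coarsening induction.  `B` is the property of blocks that are excluded. -/
theorem coarsen [DecidableEq G] (F : Finset G) (Y0 : AddMonoidAlgebra ℤ G) (B : Finset G → Prop)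
    (good : ∀ c : G → G, (∀ v, (F.filter (fun f => c f = v)).Nonempty →
        ¬ B (F.filter (fun f => c f = v))) →
      ∀ m : G → ℤ, Hyp F m → Kc F c m → Y0 • m = 0)
    (excl : ∀ (c : G → G) (v : G), B (F.filter (fun f => c f = v)) →
      ∀ m : G → ℤ, Kc F c m →
        (∑ f ∈ F.filter (fun f => c f = v), e f) • m = 0 → m = 0) :
    ∀ (n : ℕ) (c : G → G), (F.image c).card = n →
      ∀ m : G → ℤ, Hyp F m → Kc F c m → ∃ N : ℕ, Y0 ^ N • m = 0 := by
  intro n
  induction n using Nat.strong_induction_on with
  | _ n IH =>
    intro c hc m hm hk
    by_cases hall : ∀ v, (F.filter (fun f => c f = v)).Nonempty →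
        ¬ B (F.filter (fun f => c f = v))
    · exact ⟨1, by rw [pow_one]; exact good c hall m hm hk⟩
    · push Not at hall
      obtain ⟨v, ⟨f0, hf0⟩, hB⟩ := hall
      set C := F.filter (fun f => c f = v) with hC
      have hf0F : f0 ∈ F := (Finset.mem_filter.mp hf0).1
      have hf0v : c f0 = v := (Finset.mem_filter.mp hf0).2
      -- the sub-induction on the product
      have sub : ∀ t : Finset G, t ⊆ F \ C → ∀ m : G → ℤ, Hyp F m → Kc F c m →
          (∏ g ∈ t, (e (F.card • f0) - e (F.card • g))) • m = 0 → ∃ N : ℕ, Y0 ^ N • m = 0 := by
        intro t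
        induction t using Finset.induction_on with
        | empty =>
          intro _ m _ _ h
          refine ⟨0, ?_⟩
          simpa using h
        | insert g t hg ih =>
          intro hsub m hm hk h
          have htsub : t ⊆ F \ C := (Finset.insert_subset_iff.mp hsub).2
          have hgF : g ∈ F \ C := (Finset.insert_subset_iff.mp hsub).1
          have hgF' : g ∈ F := (Finset.mem_sdiff.mp hgF).1
          have hgC : c g ≠ v := by
            intro hcg
            exact (Finset.mem_sdiff.mp hgF).2 (Finset.mem_filter.mpr ⟨hgF', hcg⟩)
          rw [Finset.prod_insert hg, mul_comm, mul_smul] at h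
          obtain ⟨N1, hN1⟩ := ih htsub _ (hm.smul _) (hk.smul _) h
          -- the vector m2
          set m2 := Y0 ^ N1 • m with hm2
          have h12 : (e (F.card • f0) - e (F.card • g)) • m2 = 0 := by
            rw [hm2, smul_comm]
            exact hN1
          -- merged labelling
          set c' : G → G := fun f => if c f = c g then v else c f with hc'
          have hm2H : Hyp F m2 := hm.smul _
          have hm2K : Kc F c m2 := hk.smul _
          have hm2K' : Kc F c' m2 := by
            intro f hf f' hf' hcc
            simp only [hc'] at hcc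
            by_cases h1 : c f = c g <;> by_cases h2 : c f' = c g
            · exact hm2K f hf f' hf' (h1.trans h2.symm)
            · rw [if_pos h1, if_neg h2] at hcc
              -- c f' = v
              have e1 := hm2K f hf g hgF' h1
              have e2 := hm2K f0 hf0F f' hf' (hf0v.trans hcc)
              have : e (F.card • f) - e (F.card • f') =
                  (e (F.card • f) - e (F.card • g)) + (e (F.card • f0) - e (F.card • f'))
                    - (e (F.card • f0) - e (F.card • g)) := by ring
              rw [this, sub_smul, add_smul, e1, e2, h12]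
              simp
            · rw [if_neg h1, if_pos h2] at hcc
              have e1 := hm2K f' hf' g hgF' h2
              have e2 := hm2K f0 hf0F f hf (hf0v.trans hcc.symm)
              have : e (F.card • f) - e (F.card • f') =
                  -((e (F.card • f') - e (F.card • g)) + (e (F.card • f0) - e (F.card • f))
                    - (e (F.card • f0) - e (F.card • g))) := by ring
              rw [this, neg_smul, sub_smul, add_smul, e1, e2, h12]
              simp
            · rw [if_neg h1, if_neg h2] at hcc
              exact hm2K f hf f' hf' hcc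
          -- fewer blocks
          have hcard : (F.image c').card < n := by
            rw [← hc]
            have hsubset : F.image c' ⊆ (F.image c).erase (c g) := by
              intro w hw
              obtain ⟨f, hf, rfl⟩ := Finset.mem_image.mp hw
              simp only [hc']
              by_cases h1 : c f = c g
              · rw [if_pos h1]
                refine Finset.mem_erase.mpr ⟨fun hvg => hgC hvg.symm, ?_⟩
                exact Finset.mem_image.mpr ⟨f0, hf0F, hf0v⟩
              · rw [if_neg h1]
                exact Finset.mem_erase.mpr ⟨h1, Finset.mem_image_of_mem _ hf⟩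
            calc (F.image c').card ≤ ((F.image c).erase (c g)).card := Finset.card_le_card hsubset
              _ < (F.image c).card := Finset.card_erase_lt_of_mem (Finset.mem_image_of_mem _ hgF')
          obtain ⟨N2, hN2⟩ := IH _ hcard c' rfl m2 hm2H hm2K'
          refine ⟨N2 + N1, ?_⟩
          rw [pow_add, mul_smul]
          exact hN2
      -- the eliminated identity
      have hdisj : Disjoint C (F \ C) := Finset.disjoint_sdiff
      have hunion : C ∪ (F \ C) = F := Finset.union_sdiff_of_subset (Finset.filter_subset _ _)
      have helim := elim (fun f => e (F.card • f)) (F \ C) C (fun f => e f • m) hdisj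
        (by rw [hunion]; exact hm) 0
      simp only [pow_zero, one_smul] at helim
      -- replacing
      have hrepl : ∑ f ∈ C, (∏ g ∈ F \ C, (e (F.card • f0) - e (F.card • g))) • (e f • m) = 0 := by
        rw [← helim]
        refine Finset.sum_congr rfl fun f hf => ?_
        have hfF : f ∈ F := (Finset.mem_filter.mp hf).1
        have hfv : c f = v := (Finset.mem_filter.mp hf).2
        refine (prod_replace (fun g => e (F.card • g)) (F \ C) _ _ _ ?_).symm
        rw [smul_comm, hk f hfF f0 hf0F (hfv.trans hf0v.symm), smul_zero]
      -- conclude with exclusion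
      have hN : (∑ f ∈ C, e f) • ((∏ g ∈ F \ C, (e (F.card • f0) - e (F.card • g))) • m) = 0 := by
        rw [Finset.sum_smul, ← hrepl]
        refine Finset.sum_congr rfl fun f _ => ?_
        rw [smul_comm]
      have hzero := excl c v hB _ (hk.smul _) hN
      exact sub (F \ C) (Finset.Subset.refl _) m hm hk hzero

end Vale.Agent.Lib.P043
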