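import Vale.Agent.Lib.P043.Elim

/-!
Exclusion of blocks, bounded functions.
-/

namespace Vale.Agent.Lib.P043

open Finset

variable {G : Type*} [AddCommGroup G]

theorem e_smul_cancel (f : G) (m : G → ℤ) (h : e f • m = 0) : m = 0 := by
  have := congrArg (fun v => e (-f) • v) h
  simp only [smul_zero, smul_smul] at this
  rw [mul_comm, e_mul_neg, one_smul] at this
  exact this

theorem excl_one [DecidableEq G] (F : Finset G) (c : G → G) (v : G)
    (h : (F.filter (fun f => c f = v)).card = 1) (m : G → ℤ)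
    (hN : (∑ f ∈ F.filter (fun f => c f = v), e f) • m = 0) : m = 0 := by
  obtain ⟨f0, hf0⟩ := Finset.card_eq_one.mp h
  rw [hf0, Finset.sum_singleton] at hN
  exact e_smul_cancel _ _ hN

/-- Frobenius descent -/
theorem descent {p : ℕ} (hp : p.Prime) (a : ℕ) (C : Finset G) (hnd : ¬ p ∣ C.card) (f0 : G) :
    ∀ (n : ℕ) (m : G → ℤ), (∀ f ∈ C, (e ((p ^ a) • f) - e ((p ^ a) • f0)) • m = 0) →
      (∑ f ∈ C, e f) • m = 0 → ∀ x, ((p : ℤ) ^ n) ∣ m x := by
  intro n
  induction n with
  | zero =>
    intro m _ _ x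
    simp
  | succ n ih =>
    intro m hK hN x
    -- p divides all values of m
    have hdvd : ∀ y, (p : ℤ) ∣ m y := by
      intro y
      obtain ⟨E, hE⟩ := sum_pow_prime_pow (R := AddMonoidAlgebra ℤ G) hp a C (fun f => e f)
      have hzero : (∑ f ∈ C, e f) ^ (p ^ a) • m = 0 := by
        have hpos : p ^ a ≠ 0 := pow_ne_zero _ hp.ne_zero
        obtain ⟨s, hs⟩ := Nat.exists_eq_succ_of_ne_zero hpos
        rw [hs, pow_succ, mul_smul, hN, smul_zero]
      rw [hE, add_smul, mul_smul, natCast_smul_fn] at hzero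
      have hsum : (∑ f ∈ C, e f ^ (p ^ a)) • m = (C.card : ℤ) • (e ((p ^ a) • f0) • m) := by
        rw [Finset.sum_smul]
        have : ∀ f ∈ C, e f ^ (p ^ a) • m = e ((p ^ a) • f0) • m := by
          intro f hf
          rw [← e_nsmul]
          have := hK f hf
          rw [sub_smul, sub_eq_zero] at this
          exact this
        rw [Finset.sum_congr rfl this, Finset.sum_const, natCast_zsmul]
      rw [hsum] at hzero
      have hpt := congrFun hzero (y + (p ^ a) • f0)
      simp only [Pi.add_apply, Pi.smul_apply, smul_eq_mul, Pi.zero_apply, e_smul,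
        add_sub_cancel_right] at hpt
      have hd : (p : ℤ) ∣ (C.card : ℤ) * m y := by
        refine ⟨-(E • m) (y + (p ^ a) • f0), ?_⟩
        linarith
      have hpi : Prime (p : ℤ) := Nat.prime_iff_prime_int.mp hp
      rcases hpi.dvd_or_dvd hd with h | h
      · exact absurd (Int.natCast_dvd_natCast.mp h) hnd
      · exact h
    choose m' hm' using hdvd
    have hmm' : m = (p : AddMonoidAlgebra ℤ G) • m' := by
      rw [natCast_smul_fn]
      ext y
      simp [hm' y]
    have htf : ∀ (b : AddMonoidAlgebra ℤ G), b • m = 0 → b • m' = 0 := by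
      intro b hb
      rw [hmm', smul_comm, natCast_smul_fn] at hb
      ext y
      have := congrFun hb y
      simp only [Pi.smul_apply, smul_eq_mul, Pi.zero_apply] at this
      have hp0 : (p : ℤ) ≠ 0 := by exact_mod_cast hp.ne_zero
      exact (mul_eq_zero.mp this).resolve_left hp0
    have := ih m' (fun f hf => htf _ (hK f hf)) (htf _ hN) x
    rw [hm' x, pow_succ, mul_comm]
    exact mul_dvd_mul_left _ this

theorem excl_prime [DecidableEq G] (F : Finset G) (c : G → G) (v : G) {p a : ℕ} (hp : p.Prime)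
    (hk : F.card = p ^ a) (hnd : ¬ p ∣ (F.filter (fun f => c f = v)).card) (m : G → ℤ)
    (hK : Kc F c m) (hN : (∑ f ∈ F.filter (fun f => c f = v), e f) • m = 0) : m = 0 := by
  set C := F.filter (fun f => c f = v) with hC
  have hne : C.Nonempty := by
    rw [Finset.nonempty_iff_ne_empty]
    intro h0
    rw [h0] at hnd
    simp at hnd
  obtain ⟨f0, hf0⟩ := hne
  have hf0' := Finset.mem_filter.mp hf0
  have hall : ∀ n x, ((p : ℤ) ^ n) ∣ m x := by
    intro n x
    refine descent hp a C hnd f0 n m ?_ hN x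
    intro f hf
    have hf' := Finset.mem_filter.mp hf
    have := hK f hf'.1 f0 hf0'.1 (hf'.2.trans hf0'.2.symm)
    rwa [hk] at this
  ext x
  by_contra hx
  have hx0 : m x ≠ 0 := hx
  have hlt : ((m x).natAbs : ℤ) < (p : ℤ) ^ (m x).natAbs := by
    have := Nat.lt_pow_self (n := (m x).natAbs) hp.one_lt
    exact_mod_cast this
  have := Int.eq_zero_of_abs_lt_dvd (hall (m x).natAbs x) (by
    rw [Int.abs_eq_natAbs]
    exact hlt)
  exact hx0 this

/-- bounded functions -/
def Bdd (φ : G → ℤ) : Prop := ∃ B : ℤ, ∀ x, |φ x| ≤ B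

theorem sub_one_smul_apply (h : G) (φ : G → ℤ) (x : G) :
    ((e h - 1) • φ) x = φ (x - h) - φ x := by
  rw [sub_smul, one_smul, Pi.sub_apply, e_smul]

theorem Bdd.sub_one_smul {φ : G → ℤ} (hφ : Bdd φ) (h : G) : Bdd ((e h - 1) • φ) := by
  obtain ⟨B, hB⟩ := hφ
  refine ⟨2 * B, fun x => ?_⟩
  rw [sub_one_smul_apply]
  have h1 := hB (x - h)
  have h2 := hB x
  rw [abs_le] at h1 h2 ⊢
  constructor <;> linarith [h1.1, h1.2, h2.1, h2.2]

theorem Bdd.pow_smul {φ : G → ℤ} (hφ : Bdd φ) (h : G) (n : ℕ) : Bdd ((e h - 1) ^ n • φ) := by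
  induction n with
  | zero => simpa using hφ
  | succ n ih =>
    rw [pow_succ', mul_smul]
    exact ih.sub_one_smul h

theorem second_diff_zero {ψ : G → ℤ} (hψ : Bdd ψ) (h : G)
    (h2 : (e h - 1) • (e h - 1) • ψ = 0) : (e h - 1) • ψ = 0 := by
  set χ := (e h - 1) • ψ with hχ
  have hχper : ∀ x, χ (x - h) = χ x := by
    intro x
    have := congrFun h2 x
    rw [sub_one_smul_apply] at this
    simpa [sub_eq_zero] using this
  have hψstep : ∀ x, ψ (x - h) = ψ x + χ x := by
    intro x
    rw [hχ, sub_one_smul_apply]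
    ring
  have hχn : ∀ (n : ℕ) x, χ (x - n • h) = χ x := by
    intro n
    induction n with
    | zero => simp
    | succ n ih =>
      intro x
      rw [succ_nsmul, ← sub_sub, hχper, ih]
  have hψn : ∀ (n : ℕ) x, ψ (x - n • h) = ψ x + n * χ x := by
    intro n
    induction n with
    | zero => simp
    | succ n ih =>
      intro x
      rw [succ_nsmul, ← sub_sub, hψstep, ih, hχn]
      push_cast
      ring
  obtain ⟨B, hB⟩ := hψ
  ext x
  by_contra hne
  have hne' : χ x ≠ 0 := hne
  have hB0 : 0 ≤ B := le_trans (abs_nonneg _) (hB x)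
  have h1 := hψn (2 * B.toNat + 1) x
  have hb1 := hB (x - (2 * B.toNat + 1) • h)
  have hb2 := hB x
  rw [h1] at hb1
  have hχabs : 1 ≤ |χ x| := Int.one_le_abs hne'
  have hcast : ((2 * B.toNat + 1 : ℕ) : ℤ) = 2 * B + 1 := by
    push_cast
    rw [Int.toNat_of_nonneg hB0]
  rw [hcast] at hb1
  have h3 : |(2 * B + 1) * χ x| ≤ 2 * B := by
    have : (2 * B + 1) * χ x = (ψ x + (2 * B + 1) * χ x) - ψ x := by ring
    rw [this]
    calc |ψ x + (2 * B + 1) * χ x - ψ x| ≤ |ψ x + (2 * B + 1) * χ x| + |ψ x| := abs_sub _ _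
      _ ≤ 2 * B := by linarith
  rw [abs_mul, abs_of_pos (by linarith : (0 : ℤ) < 2 * B + 1)] at h3
  nlinarith

theorem pow_smul_zero_imp {φ : G → ℤ} (hφ : Bdd φ) (h : G) :
    ∀ N : ℕ, (e h - 1) ^ N • φ = 0 → (e h - 1) • φ = 0 := by
  intro N
  induction N with
  | zero =>
    intro h0
    simp only [pow_zero, one_smul] at h0
    rw [h0, smul_zero]
  | succ N ih =>
    intro hN
    cases N with
    | zero => simpa using hN
    | succ M =>
      apply ih
      have hb := hφ.pow_smul h M
      have h2 : (e h - 1) • (e h - 1) • ((e h - 1) ^ M • φ) = 0 := by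
        rw [← mul_smul, ← mul_smul, ← pow_two, ← pow_add, add_comm]
        exact hN
      have := second_diff_zero hb h h2
      rw [pow_succ', mul_smul]
      exact this

end Vale.Agent.Lib.P043
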