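import Mathlib

/-!
Either a finite subset of `ℤ^d` is annihilated by a nonzero functional, or it generates a subgroup
containing `Q ℤ^d`.
-/

namespace Vale.Agent.Lib.P043

open Finset

variable {d : ℕ}

/-- the standard embedding of the integer lattice in rational space -/
def castQ (v : Fin d → ℤ) : Fin d → ℚ := fun i => (v i : ℚ)

theorem mem_closure_of_mem_span (S : Set (Fin d → ℤ)) (v : Fin d → ℚ)
    (hv : v ∈ Submodule.span ℚ (castQ '' S)) :
    ∃ c : ℕ, 0 < c ∧ ∃ u ∈ AddSubgroup.closure S, ∀ i, (c : ℚ) * v i = (u i : ℚ) := by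
  induction hv using Submodule.span_induction with
  | mem x hx =>
    obtain ⟨s, hs, rfl⟩ := hx
    exact ⟨1, one_pos, s, AddSubgroup.subset_closure hs, fun i => by simp [castQ]⟩
  | zero =>
    exact ⟨1, one_pos, 0, zero_mem _, fun i => by simp⟩
  | add x y _ _ hx hy =>
    obtain ⟨c1, hc1, u1, hu1, h1⟩ := hx
    obtain ⟨c2, hc2, u2, hu2, h2⟩ := hy
    refine ⟨c1 * c2, Nat.mul_pos hc1 hc2, (c2 : ℤ) • u1 + (c1 : ℤ) • u2,
      add_mem (AddSubgroup.zsmul_mem _ hu1 _) (AddSubgroup.zsmul_mem _ hu2 _), fun i => ?_⟩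
    simp only [Pi.add_apply, Pi.smul_apply, smul_eq_mul]
    push_cast
    rw [← h1 i, ← h2 i]
    ring
  | smul a x _ hx =>
    obtain ⟨c, hc, u, hu, h⟩ := hx
    refine ⟨a.den * c, Nat.mul_pos a.den_pos hc, a.num • u, AddSubgroup.zsmul_mem _ hu _, fun i => ?_⟩
    simp only [Pi.smul_apply, smul_eq_mul]
    push_cast
    rw [← h i]
    have hden : (a.den : ℚ) ≠ 0 := by exact_mod_cast a.den_ne_zero
    have : (a.num : ℚ) = a.den * a := by
      rw [mul_comm]
      exact (Rat.mul_den_eq_num a).symm
    rw [this]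
    ring

/-- Either alternative for a finite set of vectors. -/
theorem functional_or_lattice (S : Finset (Fin d → ℤ)) :
    (∃ l : (Fin d → ℤ) →+ ℤ, l ≠ 0 ∧ ∀ s ∈ S, l s = 0) ∨
    (∃ Q : ℕ, 0 < Q ∧ ∀ h : Fin d → ℤ, (∀ i, (Q : ℤ) ∣ h i) →
      h ∈ AddSubgroup.closure (S : Set (Fin d → ℤ))) := by
  classical
  by_cases hW : Submodule.span ℚ (castQ '' (S : Set (Fin d → ℤ))) = ⊤
  · right
    have hi : ∀ i : Fin d, ∃ c : ℕ, 0 < c ∧
        (c : ℤ) • (Pi.single i 1 : Fin d → ℤ) ∈ AddSubgroup.closure (S : Set (Fin d → ℤ)) := by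
      intro i
      have hmem : (Pi.single i 1 : Fin d → ℚ) ∈ Submodule.span ℚ (castQ '' (S : Set (Fin d → ℤ))) := by
        rw [hW]
        trivial
      obtain ⟨c, hc, u, hu, h⟩ := mem_closure_of_mem_span _ _ hmem
      refine ⟨c, hc, ?_⟩
      have : (c : ℤ) • (Pi.single i 1 : Fin d → ℤ) = u := by
        ext j
        have hj := h j
        by_cases hij : j = i
        · subst hij
          simp only [Pi.single_eq_same, mul_one] at hj
          simp only [Pi.smul_apply, Pi.single_eq_same, smul_eq_mul, mul_one]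
          exact_mod_cast hj
        · simp only [Pi.single_eq_of_ne hij, mul_zero] at hj
          simp only [Pi.smul_apply, Pi.single_eq_of_ne hij, smul_eq_mul, mul_zero]
          exact_mod_cast hj
      rw [this]
      exact hu
    choose c hc hcmem using hi
    refine ⟨∏ i, c i, Finset.prod_pos fun i _ => hc i, fun h hh => ?_⟩
    have hsum : h = ∑ i, (h i) • (Pi.single i 1 : Fin d → ℤ) := by
      ext j
      simp [Finset.sum_apply, Pi.single_apply]
    rw [hsum]
    refine sum_mem fun i _ => ?_
    obtain ⟨t, ht⟩ := hh i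
    have hdv : (c i : ℤ) ∣ ((∏ j, c j : ℕ) : ℤ) := by
      exact_mod_cast Finset.dvd_prod_of_mem c (Finset.mem_univ i)
    obtain ⟨w, hw⟩ := hdv
    have : (h i) • (Pi.single i 1 : Fin d → ℤ) = (w * t) • ((c i : ℤ) • (Pi.single i 1 : Fin d → ℤ)) := by
      rw [smul_smul, ht, hw]
      congr 1
      ring
    rw [this]
    exact AddSubgroup.zsmul_mem _ (hcmem i) _
  · left
    have hlt : Submodule.span ℚ (castQ '' (S : Set (Fin d → ℤ))) < ⊤ := lt_top_iff_ne_top.mpr hW
    obtain ⟨f, hf0, hfker⟩ := Submodule.exists_le_ker_of_lt_top _ hlt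
    let a : Fin d → ℚ := fun i => f (Pi.single i 1)
    obtain ⟨D, hD⟩ := IsLocalization.exist_integer_multiples_of_finite (nonZeroDivisors ℤ) a
    have hD0 : ((D : ℤ) : ℚ) ≠ 0 := by
      have : (D : ℤ) ≠ 0 := nonZeroDivisors.coe_ne_zero D
      exact_mod_cast this
    choose b hb using hD
    have hb' : ∀ i, (b i : ℚ) = (D : ℤ) * a i := by
      intro i
      have := hb i
      simpa [zsmul_eq_mul] using this
    let l : (Fin d → ℤ) →+ ℤ :=
      { toFun := fun x => ∑ i, b i * x i
        map_zero' := by simp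
        map_add' := fun x y => by
          simp [mul_add, Finset.sum_add_distrib] }
    have hlapply : ∀ x : Fin d → ℤ, ((l x : ℤ) : ℚ) = (D : ℤ) * f (castQ x) := by
      intro x
      have hsum : castQ x = ∑ i, (x i : ℚ) • (Pi.single i 1 : Fin d → ℚ) := by
        ext j
        simp [castQ, Finset.sum_apply, Pi.single_apply]
      rw [hsum, map_sum, Finset.mul_sum]
      change ((∑ i, b i * x i : ℤ) : ℚ) = _
      push_cast
      refine Finset.sum_congr rfl fun i _ => ?_
      rw [map_smul, hb' i]
      simp only [smul_eq_mul, a]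
      ring
    refine ⟨l, ?_, ?_⟩
    · intro hl
      apply hf0
      have hb0 : ∀ i, a i = 0 := by
        intro i
        have h1 := hlapply (Pi.single i 1)
        rw [hl] at h1
        have hc : castQ (Pi.single i 1 : Fin d → ℤ) = Pi.single i 1 := by
          ext j
          by_cases hij : j = i
          · subst hij
            simp [castQ]
          · simp [castQ, Pi.single_eq_of_ne hij]
        rw [hc] at h1
        simp only [AddMonoidHom.zero_apply, Int.cast_zero] at h1
        have := (mul_eq_zero.mp h1.symm).resolve_left hD0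
        exact this
      ext i
      · simpa [a] using hb0 i
    · intro s hs
      have hsmem : castQ s ∈ Submodule.span ℚ (castQ '' (S : Set (Fin d → ℤ))) :=
        Submodule.subset_span ⟨s, hs, rfl⟩
      have hker := hfker hsmem
      rw [LinearMap.mem_ker] at hker
      have := hlapply s
      rw [hker, mul_zero] at this
      exact_mod_cast this

end Vale.Agent.Lib.P043
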