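import Vale.Agent.Lib.P043.Excl
import Vale.Agent.Lib.P043.Lattice

/-!
Main theorem: level-separated tiles have only periodic tilings.
-/

namespace Vale.Agent.Lib.P043

open Finset

variable {d : ℕ}

/-- a block of a labelling is excluded -/
def BlockB (F C : Finset (Fin d → ℤ)) : Prop :=
  C.card = 1 ∨ ∃ p a : ℕ, p.Prime ∧ F.card = p ^ a ∧ ¬ p ∣ C.card

/-- If all blocks of a labelling are not excluded then the level hypothesis shows that a
functional cannot vanish on within-block differences. -/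
theorem no_functional (F : Finset (Fin d → ℤ))
    (hsep : ∀ l : (Fin d → ℤ) →+ ℤ, l ≠ 0 → ∃ v : ℤ,
      (F.filter (fun f => l f = v)).card = 1 ∨
      ∃ p a : ℕ, p.Prime ∧ F.card = p ^ a ∧ ¬ p ∣ (F.filter (fun f => l f = v)).card)
    (c : (Fin d → ℤ) → (Fin d → ℤ))
    (hgood : ∀ v, (F.filter (fun f => c f = v)).Nonempty → ¬ BlockB F (F.filter (fun f => c f = v)))
    (l : (Fin d → ℤ) →+ ℤ) (hl : l ≠ 0)
    (hS : ∀ f ∈ F, ∀ f' ∈ F, c f = c f' → l (f - f') = 0) : False := by
  obtain ⟨v, hv⟩ := hsep l hl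
  have hblock : ∀ f ∈ F, l f = v → F.filter (fun g => c g = c f) ⊆ F.filter (fun g => l g = v) := by
    intro f hf hlf g hg
    have hg' := Finset.mem_filter.mp hg
    refine Finset.mem_filter.mpr ⟨hg'.1, ?_⟩
    have := hS g hg'.1 f hf hg'.2
    rw [map_sub, sub_eq_zero] at this
    rw [this, hlf]
  rcases hv with h1 | ⟨p, a, hp, hk, hnd⟩
  · obtain ⟨f, hf⟩ := Finset.card_eq_one.mp h1
    have hfm : f ∈ F.filter (fun g => l g = v) := by rw [hf]; exact Finset.mem_singleton_self f
    have hfm' := Finset.mem_filter.mp hfm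
    have hsub := hblock f hfm'.1 hfm'.2
    rw [hf] at hsub
    have hself : f ∈ F.filter (fun g => c g = c f) := Finset.mem_filter.mpr ⟨hfm'.1, rfl⟩
    have hone : (F.filter (fun g => c g = c f)).card = 1 := by
      apply le_antisymm
      · calc _ ≤ ({f} : Finset (Fin d → ℤ)).card := Finset.card_le_card hsub
          _ = 1 := Finset.card_singleton f
      · exact Finset.card_pos.mpr ⟨f, hself⟩
    exact hgood (c f) ⟨f, hself⟩ (Or.inl hone)
  · -- some block in the level has size not divisible by p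
    by_cases hall : ∀ f ∈ F.filter (fun g => l g = v), p ∣ (F.filter (fun g => c g = c f)).card
    · apply hnd
      rw [Finset.card_eq_sum_card_fiberwise (f := c) (t := (F.filter (fun g => l g = v)).image c)
        (fun x hx => Finset.mem_image_of_mem _ hx)]
      refine Finset.dvd_sum fun w hw => ?_
      obtain ⟨f, hf, rfl⟩ := Finset.mem_image.mp hw
      have hf' := Finset.mem_filter.mp hf
      have heq : (F.filter (fun g => l g = v)).filter (fun g => c g = c f)
          = F.filter (fun g => c g = c f) := by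
        ext g
        simp only [Finset.mem_filter]
        constructor
        · rintro ⟨⟨h1, _⟩, h3⟩
          exact ⟨h1, h3⟩
        · rintro ⟨h1, h3⟩
          have := hblock f hf'.1 hf'.2 (Finset.mem_filter.mpr ⟨h1, h3⟩)
          exact ⟨Finset.mem_filter.mp this, h3⟩
      rw [heq]
      exact hall f hf
    · push Not at hall
      obtain ⟨f, hf, hnd'⟩ := hall
      have hne : (F.filter (fun g => c g = c f)).Nonempty :=
        ⟨f, Finset.mem_filter.mpr ⟨(Finset.mem_filter.mp hf).1, rfl⟩⟩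
      exact hgood (c f) hne (Or.inr ⟨p, a, hp, hk, hnd'⟩)

/-- The main theorem. -/
theorem main_theorem (F : Finset (Fin d → ℤ))
    (hsep : ∀ l : (Fin d → ℤ) →+ ℤ, l ≠ 0 → ∃ v : ℤ,
      (F.filter (fun f => l f = v)).card = 1 ∨
      ∃ p a : ℕ, p.Prime ∧ F.card = p ^ a ∧ ¬ p ∣ (F.filter (fun f => l f = v)).card) :
    ∃ Q : ℕ, 0 < Q ∧ ∀ A : Set (Fin d → ℤ),
      (∀ x, ∃! q : (Fin d → ℤ) × (Fin d → ℤ), q.1 ∈ A ∧ q.2 ∈ F ∧ q.1 + q.2 = x) →
      ∀ h : Fin d → ℤ, (∀ i, (Q : ℤ) ∣ h i) → ∀ x, x + h ∈ A ↔ x ∈ A := by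
  classical
  by_cases hF : F.Nonempty
  swap
  · refine ⟨1, one_pos, fun A hA => ?_⟩
    exfalso
    obtain ⟨q, ⟨_, hq2, _⟩, _⟩ := hA 0
    exact hF ⟨_, hq2⟩
  -- uniform choice of Q
  have halt := fun S : Finset (Fin d → ℤ) => functional_or_lattice S
  have hex : ∀ S : Finset (Fin d → ℤ), ∃ Q : ℕ, 0 < Q ∧
      ((∃ l : (Fin d → ℤ) →+ ℤ, l ≠ 0 ∧ ∀ s ∈ S, l s = 0) ∨
       ∀ h : Fin d → ℤ, (∀ i, (Q : ℤ) ∣ h i) → h ∈ AddSubgroup.closure (S : Set (Fin d → ℤ))) := by
    intro S
    rcases halt S with h | ⟨Q, hQ, h⟩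
    · exact ⟨1, one_pos, Or.inl h⟩
    · exact ⟨Q, hQ, Or.inr h⟩
  choose Qf hQf hQalt using hex
  set k := F.card with hk
  have hkpos : 0 < k := Finset.card_pos.mpr hF
  set Δ := (F ×ˢ F).image (fun p => p.1 - p.2) with hΔ
  set Q := k * ∏ S ∈ Δ.powerset, Qf S with hQ
  have hQpos : 0 < Q := Nat.mul_pos hkpos (Finset.prod_pos fun S _ => hQf S)
  refine ⟨Q, hQpos, fun A hA h hh x => ?_⟩
  -- the indicator function
  let χ : (Fin d → ℤ) → ℤ := fun x => if x ∈ A then 1 else 0
  have hχ0 : ∀ x, 0 ≤ χ x := fun x => by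
    simp only [χ]
    split_ifs <;> norm_num
  have hχ1 : ∀ x, χ x ≤ 1 := fun x => by
    simp only [χ]
    split_ifs <;> norm_num
  have h1 : hat F 1 • χ = one := by
    ext y
    rw [hat_smul_apply]
    simp only [one_smul, one, χ]
    rw [Finset.sum_ite, Finset.sum_const_zero, add_zero, Finset.sum_const, nsmul_eq_mul, mul_one]
    -- exactly one f
    obtain ⟨q, ⟨hq1, hq2, hq3⟩, hq⟩ := hA y
    have : F.filter (fun f => y - f ∈ A) = {q.2} := by
      ext f
      simp only [Finset.mem_filter, Finset.mem_singleton]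
      constructor
      · rintro ⟨hf, hfA⟩
        have := hq (y - f, f) ⟨hfA, hf, sub_add_cancel y f⟩
        rw [← this]
      · rintro rfl
        refine ⟨hq2, ?_⟩
        have : y - q.2 = q.1 := by rw [← hq3]; abel
        rw [this]
        exact hq1
    rw [this]
    simp
  have hdil := dilation F hF χ hχ0 hχ1 h1
  let m : (Fin d → ℤ) → ℤ := (k : ℤ) • χ - one
  -- hypothesis for m
  have hHat : ∀ r : ℕ, 0 < r → Nat.Coprime r k → hat F r • m = 0 := by
    intro r hr hc
    simp only [m]
    rw [smul_sub, hat_smul_one, smul_comm (hat F r) (k : ℤ)]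
    · rw [hdil r hr hc]
      simp [hk]
  have hHyp : Hyp F m := by
    intro j
    have hc : Nat.Coprime (F.card * j + 1) k := by
      rw [hk]
      simp
    have := hHat (F.card * j + 1) (Nat.succ_pos _) hc
    rw [← this, hat, Finset.sum_smul]
    refine Finset.sum_congr rfl fun f _ => ?_
    rw [← e_nsmul, ← mul_smul, ← e_add]
    congr 2
    rw [add_smul, one_smul, mul_smul, smul_comm]
  -- the bounded function
  have hBdd : Bdd m := by
    refine ⟨(k : ℤ) + 1, fun y => ?_⟩
    simp only [m, Pi.sub_apply, Pi.smul_apply, smul_eq_mul, one]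
    have h0 := hχ0 y
    have h1' := hχ1 y
    have hk0 : (0 : ℤ) < k := by exact_mod_cast hkpos
    rw [abs_le]
    constructor <;> nlinarith
  -- the operator
  have hgoodstep : ∀ c : (Fin d → ℤ) → (Fin d → ℤ),
      (∀ v, (F.filter (fun f => c f = v)).Nonempty → ¬ BlockB F (F.filter (fun f => c f = v))) →
      ∀ m' : (Fin d → ℤ) → ℤ, Hyp F m' → Kc F c m' → (e h - 1) • m' = 0 := by
    intro c hgoodc m' _ hK
    set S := ((F ×ˢ F).filter (fun p => c p.1 = c p.2)).image (fun p => p.1 - p.2) with hS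
    have hSsub : S ∈ Δ.powerset := by
      rw [Finset.mem_powerset]
      intro s hs
      obtain ⟨p, hp, rfl⟩ := Finset.mem_image.mp hs
      exact Finset.mem_image_of_mem _ (Finset.mem_filter.mp hp).1
    rcases hQalt S with ⟨l, hl, hlS⟩ | hlat
    · exfalso
      refine no_functional F hsep c hgoodc l hl ?_
      intro f hf f' hf' hcc
      apply hlS
      refine Finset.mem_image.mpr ⟨(f, f'), Finset.mem_filter.mpr ⟨Finset.mem_product.mpr ⟨hf, hf'⟩, hcc⟩, rfl⟩
    · -- write h = k • h'
      have hQdvd : ((k * Qf S : ℕ) : ℤ) ∣ (Q : ℤ) := by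
        rw [hQ]
        exact_mod_cast Nat.mul_dvd_mul_left k (Finset.dvd_prod_of_mem Qf hSsub)
      have hh2 : ∀ i, ((k : ℤ) * (Qf S : ℤ)) ∣ h i := by
        intro i
        have := dvd_trans hQdvd (hh i)
        exact_mod_cast this
      have hhk : ∀ i, (k : ℤ) ∣ h i := fun i => dvd_trans (Dvd.intro _ rfl) (hh2 i)
      choose h' hh' using hhk
      have hh'Q : ∀ i, (Qf S : ℤ) ∣ h' i := by
        intro i
        have := hh2 i
        rw [hh' i] at this
        have hk0 : (k : ℤ) ≠ 0 := by exact_mod_cast hkpos.ne'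
        exact (mul_dvd_mul_iff_left hk0).mp this
      have hmem := hlat h' hh'Q
      have hheq : h = k • h' := by
        ext i
        simp [hh' i]
      -- stabiliser
      have hstab : ∀ u ∈ AddSubgroup.closure (S : Set (Fin d → ℤ)), e (k • u) • m' = m' := by
        intro u hu
        induction hu using AddSubgroup.closure_induction with
        | mem s hs =>
          obtain ⟨p, hp, rfl⟩ := Finset.mem_image.mp hs
          have hp' := Finset.mem_filter.mp hp
          have hpp := Finset.mem_product.mp hp'.1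
          have hz := hK p.1 hpp.1 p.2 hpp.2 hp'.2
          rw [sub_smul, sub_eq_zero] at hz
          have hsplit : k • (p.1 - p.2) = k • p.1 + -(k • p.2) := by
            rw [smul_sub, sub_eq_add_neg]
          rw [hsplit, e_add, mul_comm, mul_smul, hz, ← mul_smul, mul_comm, e_mul_neg, one_smul]
        | zero =>
          rw [smul_zero, e_zero, one_smul]
        | add u v _ _ hu hv =>
          rw [smul_add, e_add, mul_smul, hv, hu]
        | neg u _ hu =>
          have : e (k • -u) • m' = e (k • -u) • (e (k • u) • m') := by rw [hu]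
          rw [this, ← mul_smul, smul_neg, mul_comm, e_mul_neg, one_smul]
      rw [sub_smul, one_smul, hheq, hstab h' hmem, sub_self]
  have hexclstep : ∀ (c : (Fin d → ℤ) → (Fin d → ℤ)) (v : Fin d → ℤ),
      BlockB F (F.filter (fun f => c f = v)) →
      ∀ m' : (Fin d → ℤ) → ℤ, Kc F c m' →
        (∑ f ∈ F.filter (fun f => c f = v), e f) • m' = 0 → m' = 0 := by
    intro c v hB m' hK hN
    rcases hB with h1 | ⟨p, a, hp, hka, hnd⟩
    · exact excl_one F c v h1 m' hN
    · exact excl_prime F c v hp hka hnd m' hK hN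
  obtain ⟨N, hN⟩ := coarsen F (e h - 1) (BlockB F) hgoodstep hexclstep _ id rfl m hHyp (by
    intro f _ f' _ hcc
    have : f = f' := hcc
    rw [this, sub_self, zero_smul])
  have hzero := pow_smul_zero_imp hBdd h N hN
  have hpt := congrFun hzero (x + h)
  rw [sub_one_smul_apply, add_sub_cancel_right] at hpt
  simp only [m, Pi.sub_apply, Pi.smul_apply, smul_eq_mul, one, Pi.zero_apply] at hpt
  have hk0 : (k : ℤ) ≠ 0 := by exact_mod_cast hkpos.ne'
  have hχeq : χ x = χ (x + h) := by
    have : (k : ℤ) * (χ x - χ (x + h)) = 0 := by linarith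
    have := (mul_eq_zero.mp this).resolve_left hk0
    linarith
  simp only [χ] at hχeq
  by_cases hx : x ∈ A <;> by_cases hx' : x + h ∈ A <;> simp_all

end Vale.Agent.Lib.P043
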